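import Vale.Agent.Lib.P371.Main

/-! Lieb-Thirring bound at `γ = 1` for matrix potentials on the line. -/

open MeasureTheory Matrix
open Vale.Agent.Lib.P371

/-- For a potential `W` with values in the positive semidefinite `m × m` matrices and any finite
orthonormal family of `H¹` eigenfunctions of `-d²/dx² - W` with negative eigenvalues `lam j`, the
sum of the `|lam j|` is at most `1.442 * (2 / (3 π)) * ∫ tr W^(3/2)`. Here `2 / (3 π)` is the
semiclassical constant at `γ = 1`. -/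
theorem Vale.Agent.Results.P371.A_main.result (m N : ℕ) (W : ℝ → Matrix (Fin m) (Fin m) ℂ)
    (hW : IsPotential W) (hint : Integrable (trPow hW (3 / 2)))
    (ψ ψ' : Fin N → ℝ → Fin m → ℂ) (hψ : ∀ j, IsH1 (ψ j) (ψ' j)) (lam : Fin N → ℝ)
    (horth : ∀ j k, ∫ x, star (ψ j x) ⬝ᵥ ψ k x = if j = k then (1 : ℂ) else 0)
    (hneg : ∀ j, lam j < 0)
    (heig : ∀ j (φ φ' : ℝ → Fin m → ℂ), IsH1 φ φ' →
      (∫ x, star (φ' x) ⬝ᵥ ψ' j x) - (∫ x, star (φ x) ⬝ᵥ (W x *ᵥ ψ j x)) =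
        (lam j : ℂ) * ∫ x, star (φ x) ⬝ᵥ ψ j x) :
    ∑ j, |lam j| ≤ 1.442 * (2 / (3 * Real.pi)) * ∫ x, trPow hW (3 / 2) x := by
  refine (lt_bound hW hint hψ horth hneg heig).trans ?_
  have htr0 : ∀ x, 0 ≤ trPow hW (3 / 2) x := fun x =>
    Finset.sum_nonneg fun i _ => Real.rpow_nonneg ((hW.psd x).eigenvalues_nonneg i) _
  have hA : 0 ≤ ∫ x, trPow hW (3 / 2) x := integral_nonneg htr0
  refine mul_le_mul_of_nonneg_right ?_ hA
  have hpi := Real.pi_gt_three
  have hpi2 := Real.pi_lt_d4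
  rw [mul_div_assoc', le_div_iff₀ (by positivity)]
  nlinarith
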