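import Vale.Agent.Lib.P371.SharpLT

/-! The sharp Lieb-Thirring bound at `γ = 1` for scalar potentials on the line. -/

open MeasureTheory
open Vale.Agent.Lib.P371

/-- For a non-negative measurable potential `W` on the line with `∫ W ^ (3/2) < ∞` and any finite
orthonormal family of `H¹` eigenfunctions of `-d²/dx² - W` with negative eigenvalues `lam j`, the
sum of the `|lam j|` is at most `(2 / √3) * (2 / (3 π)) * ∫ W ^ (3/2)`. Here `2 / (3 π)` is the
semiclassical constant at `γ = 1` and `(2 / √3) * (2 / (3 π))` is the one-bound-state constant. -/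
theorem Vale.Agent.Results.P371.B_sharp.result (N : ℕ) (W : ℝ → ℝ) (hWm : Measurable W)
    (hW0 : ∀ x, 0 ≤ W x) (hint : Integrable fun x => W x ^ (3 / 2 : ℝ))
    (ψ ψ' : Fin N → ℝ → ℂ) (hψ : ∀ j, ScalarH1 (ψ j) (ψ' j)) (lam : Fin N → ℝ)
    (horth : ∀ j k, ∫ x, star (ψ j x) * ψ k x = if j = k then (1 : ℂ) else 0)
    (hneg : ∀ j, lam j < 0)
    (heig : ∀ j (φ φ' : ℝ → ℂ), ScalarH1 φ φ' →
      (∫ x, star (φ' x) * ψ' j x) - (∫ x, star (φ x) * ((W x : ℂ) * ψ j x)) =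
        (lam j : ℂ) * ∫ x, star (φ x) * ψ j x) :
    ∑ j, |lam j| ≤ 2 / Real.sqrt 3 * (2 / (3 * Real.pi)) * ∫ x, W x ^ (3 / 2 : ℝ) := by
  have hpi := Real.pi_pos
  have hs : 0 < Real.sqrt 3 := by positivity
  have hs2 : Real.sqrt 3 ^ 2 = 3 := Real.sq_sqrt (by norm_num)
  have ht : 0 < 2 / (Real.sqrt 3 * Real.pi) := by positivity
  have hK : 1 / (3 * (2 / (Real.sqrt 3 * Real.pi)) ^ 2) ≤ Real.pi ^ 2 / 4 := by
    have e : 1 / (3 * (2 / (Real.sqrt 3 * Real.pi)) ^ 2) = Real.pi ^ 2 / 4 := by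
      rw [div_pow, mul_pow, hs2]
      field_simp
      norm_num
    exact e.le
  have h := Sharp.lt_scalar_sharp ht hK W hWm hW0 hint ψ ψ' hψ lam horth hneg heig
  have e : 2 * (2 / (Real.sqrt 3 * Real.pi)) / 3 = 2 / Real.sqrt 3 * (2 / (3 * Real.pi)) := by
    field_simp
  rwa [e] at h
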